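import Mathlib

/-!
# P176: the little finitistic dimension
-/

namespace P176H

open CategoryTheory

/-- The little finitistic dimension: the supremum of the projective dimensions of the finitely
generated (left) modules of finite projective dimension; the zero module counts as `0`. -/
noncomputable def findim (A : Type) [Ring A] : ℕ∞ :=
  ⨆ (M : ModuleCat.{0} A) (_ : Module.Finite A M) (_ : projectiveDimension M < ⊤),
    (projectiveDimension M).unbotD 0

theorem findim_eq_top (A : Type) [Ring A]
    (h : ∀ n : ℕ, ∃ M : ModuleCat.{0} A, Module.Finite A M ∧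
      (n : WithBot ℕ∞) ≤ projectiveDimension M ∧ projectiveDimension M < ⊤) :
    findim A = ⊤ := by
  rw [ENat.eq_top_iff_forall_ge]
  intro n
  obtain ⟨M, hM, hn, ht⟩ := h n
  refine le_trans ?_ (le_iSup_of_le M (le_iSup_of_le hM (le_iSup_of_le ht le_rfl)))
  cases hd : projectiveDimension M with
  | bot =>
    rw [hd] at hn
    simp at hn
  | coe d =>
    rw [hd] at hn
    rw [WithBot.unbotD_coe]
    exact_mod_cast hn

/-- From the two vanishing notions to the projective dimension. -/
theorem pd_of (A : Type) [Ring A] (M : ModuleCat.{0} A) (n : ℕ)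
    (h1 : ∃ m, HasProjectiveDimensionLT M m) (h2 : ¬ HasProjectiveDimensionLT M n) :
    (n : WithBot ℕ∞) ≤ projectiveDimension M ∧ projectiveDimension M < ⊤ := by
  refine ⟨(projectiveDimension_ge_iff M n).2 h2, ?_⟩
  obtain ⟨m, hm⟩ := h1
  refine lt_of_lt_of_le (projectiveDimension_lt_iff.2 hm) le_top

end P176H
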