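import Vale.Agent.P176H.PD
import Vale.Agent.P176H.Final

/-!
# P176: projective dimension by resolutions, as in the problem file
-/

namespace P176H

open CategoryTheory

/-- `M` has a projective resolution `0 → Pₙ → ⋯ → P₁ → P₀ → M → 0` of length at most `n`. -/
def HasRes (A : Type) [Ring A] : ℕ → ∀ (M : Type) [AddCommGroup M] [Module A M], Prop
  | 0, M, _, _ => Module.Projective A M
  | n + 1, M, _, _ => ∃ (P K : Type) (_ : AddCommGroup P) (_ : Module A P)
      (_ : AddCommGroup K) (_ : Module A K) (f : K →ₗ[A] P) (g : P →ₗ[A] M),
      Module.Projective A P ∧ Function.Injective f ∧ Function.Exact f g ∧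
        Function.Surjective g ∧ HasRes A n K

/-- The projective dimension of a left `A`-module: the minimal length of a projective
resolution, `⊤` if there is none of finite length. -/
noncomputable def pd (A : Type) [Ring A] (M : Type) [AddCommGroup M] [Module A M] : ℕ∞ :=
  ⨅ (n : ℕ) (_ : HasRes A n M), (n : ℕ∞)

/-- The little finitistic dimension: the supremum of the projective dimensions of the finitely
generated left modules of finite projective dimension. -/
noncomputable def littleFindim (A : Type) [Ring A] : ℕ∞ :=
  ⨆ (M : Type) (_ : AddCommGroup M) (_ : Module A M) (_ : Module.Finite A M)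
    (_ : pd A M ≠ ⊤), pd A M

theorem hasRes_iff (A : Type) [Ring A] (n : ℕ) (M : Type) [AddCommGroup M] [Module A M] :
    HasRes A n M ↔ PDLT A M (n + 1) := by
  induction n generalizing M with
  | zero =>
    constructor
    · intro h
      have : Module.Projective A M := h
      exact PDLT.of_projective
    · intro h
      exact PDLT.projective h
  | succ n ih =>
    constructor
    · rintro ⟨P, K, _, _, _, _, f, g, hP, hf, hfg, hg, hK⟩
      have := (ih K).1 hK
      exact (PDLT.syz hf hg hfg).2 this
    · intro h
      let g : (M →₀ A) →ₗ[A] M := Finsupp.linearCombination A id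
      have hg : Function.Surjective g := Finsupp.linearCombination_id_surjective A M
      have hf : Function.Injective (LinearMap.ker g).subtype := Submodule.injective_subtype _
      have hfg : Function.Exact (LinearMap.ker g).subtype g := LinearMap.exact_subtype_ker_map g
      refine ⟨M →₀ A, LinearMap.ker g, inferInstance, inferInstance, inferInstance, inferInstance,
        (LinearMap.ker g).subtype, g, inferInstance, hf, hfg, hg, ?_⟩
      exact (ih _).2 ((PDLT.syz hf hg hfg).1 h)

theorem littleFindim_eq_top (A : Type) [Ring A]
    (h : ∀ n : ℕ, ∃ M : ModuleCat.{0} A, Module.Finite A M ∧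
      (n : WithBot ℕ∞) ≤ projectiveDimension M ∧ projectiveDimension M ≠ ⊤) :
    littleFindim A = ⊤ := by
  rw [ENat.eq_top_iff_forall_ge]
  intro n
  obtain ⟨M, hM, hn, ht⟩ := h n
  have hres : ∀ m : ℕ, HasRes A m M → n ≤ m := by
    intro m hm
    have h1 : HasProjectiveDimensionLT (ModuleCat.of A M) (m + 1) := (hasRes_iff A m M).1 hm
    have h2 : ¬ HasProjectiveDimensionLT (ModuleCat.of A M) n :=
      (projectiveDimension_ge_iff _ n).1 hn
    by_contra hlt
    exact h2 (hasProjectiveDimensionLT_of_ge _ (m + 1) n (by omega))
  have hpd : pd A M ≠ ⊤ := by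
    obtain ⟨m, hm⟩ := (projectiveDimension_ne_top_iff _).1 ht
    have hm' : HasRes A m M := (hasRes_iff A m M).2 hm
    have : pd A M ≤ (m : ℕ∞) := iInf₂_le m hm'
    intro htop
    rw [htop, top_le_iff] at this
    exact ENat.natCast_ne_top m this
  refine le_trans ?_ (le_iSup_of_le M (le_iSup_of_le inferInstance (le_iSup_of_le inferInstance
    (le_iSup_of_le hM (le_iSup_of_le hpd le_rfl)))))
  exact le_iInf₂ fun m hm => by exact_mod_cast hres m hm

end P176H
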