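import Mathlib

/-!
# P176: projective dimension of modules, dimension shifting, the step
-/

namespace P176H

open CategoryTheory

universe u v

variable {A : Type u} [Ring A]

/-- the projective dimension of the module `M` is less than `n` -/
def PDLT (A : Type u) [Ring A] (M : Type u) [AddCommGroup M] [Module A M] (n : ℕ) : Prop :=
  HasProjectiveDimensionLT (ModuleCat.of A M) n

variable {M M' N X Y Z : Type u} [AddCommGroup M] [Module A M] [AddCommGroup M'] [Module A M']
  [AddCommGroup N] [Module A N] [AddCommGroup X] [Module A X] [AddCommGroup Y] [Module A Y]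
  [AddCommGroup Z] [Module A Z]

theorem PDLT.mono {m n : ℕ} (h : PDLT A M m) (hmn : m ≤ n) : PDLT A M n := by
  have : HasProjectiveDimensionLT (ModuleCat.of A M) m := h
  exact hasProjectiveDimensionLT_of_ge _ m n hmn

theorem PDLT.of_projective [Module.Projective A M] : PDLT A M 1 := by
  have : Projective (ModuleCat.of A M) :=
    (IsProjective.iff_projective M).1 inferInstance
  show HasProjectiveDimensionLT (ModuleCat.of A M) 1
  infer_instance

theorem PDLT.projective (h : PDLT A M 1) : Module.Projective A M := by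
  have : HasProjectiveDimensionLT (ModuleCat.of A M) 1 := h
  have h2 : Projective (ModuleCat.of A M) := projective_iff_hasProjectiveDimensionLT_one.2 h
  exact (IsProjective.iff_projective M).2 h2

theorem pdlt_congr (e : M ≃ₗ[A] N) {n : ℕ} : PDLT A M n ↔ PDLT A N n := by
  constructor
  · intro h
    have : HasProjectiveDimensionLT (ModuleCat.of A M) n := h
    exact hasProjectiveDimensionLT_of_iso (e.toModuleIso) n
  · intro h
    have : HasProjectiveDimensionLT (ModuleCat.of A N) n := h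
    exact hasProjectiveDimensionLT_of_iso (e.symm.toModuleIso) n

section ses

variable {f : X →ₗ[A] Y} {g : Y →ₗ[A] Z}

/-- short exact sequences of modules -/
theorem ses (hf : Function.Injective f)
    (hg : Function.Surjective g) (h : Function.Exact f g) :
    (ShortComplex.mk (ModuleCat.ofHom f) (ModuleCat.ofHom g) (by
      ext x
      exact h.apply_apply_eq_zero x)).ShortExact := by
  refine ShortComplex.ShortExact.mk' ?_ ?_ ?_
  · rw [ShortComplex.ShortExact.moduleCat_exact_iff_function_exact]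
    exact h
  · rw [ModuleCat.mono_iff_injective]; exact hf
  · rw [ModuleCat.epi_iff_surjective]; exact hg

variable {n : ℕ} (hf : Function.Injective f) (hg : Function.Surjective g)
  (h : Function.Exact f g)

include hf hg h

theorem PDLT.mid (h1 : PDLT A X n) (h3 : PDLT A Z n) : PDLT A Y n :=
  (ses hf hg h).hasProjectiveDimensionLT_X₂ n h1 h3

theorem PDLT.right (h1 : PDLT A X n) (h2 : PDLT A Y (n + 1)) : PDLT A Z (n + 1) :=
  (ses hf hg h).hasProjectiveDimensionLT_X₃ n h1 h2

theorem PDLT.left (h2 : PDLT A Y n) (h3 : PDLT A Z (n + 1)) : PDLT A X n :=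
  (ses hf hg h).hasProjectiveDimensionLT_X₁ n h2 h3

theorem PDLT.syz [Module.Projective A Y] : PDLT A Z (n + 2) ↔ PDLT A X (n + 1) :=
  (ses hf hg h).hasProjectiveDimensionLT_X₃_iff n
    ((IsProjective.iff_projective Y).1 inferInstance)

end ses

/-! ### submodules -/

theorem PDLT.of_quot (K : Submodule A M) {n : ℕ} (h1 : PDLT A K n) (h3 : PDLT A (M ⧸ K) n) :
    PDLT A M n :=
  PDLT.mid K.injective_subtype K.mkQ_surjective (LinearMap.exact_subtype_mkQ K) h1 h3

theorem PDLT.quot (K : Submodule A M) {n : ℕ} (h1 : PDLT A K n) (h2 : PDLT A M (n + 1)) :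
    PDLT A (M ⧸ K) (n + 1) :=
  PDLT.right K.injective_subtype K.mkQ_surjective (LinearMap.exact_subtype_mkQ K) h1 h2

/-- range and kernel of a map from a projective module -/
theorem PDLT.ker_iff_range [Module.Projective A M] (d : M →ₗ[A] N) {n : ℕ} :
    PDLT A (LinearMap.range d) (n + 2) ↔ PDLT A (LinearMap.ker d) (n + 1) :=
  PDLT.syz (f := (LinearMap.ker d).subtype) (g := d.rangeRestrict)
    (Submodule.injective_subtype _) d.surjective_rangeRestrict (by
      intro x
      constructor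
      · intro hx
        have : d x = 0 := congrArg Subtype.val hx
        exact ⟨⟨x, this⟩, rfl⟩
      · rintro ⟨y, rfl⟩
        exact Subtype.ext y.2)

/-- quotient of a projective module -/
theorem PDLT.quot_iff [Module.Projective A M] (K : Submodule A M) {n : ℕ} :
    PDLT A (M ⧸ K) (n + 2) ↔ PDLT A K (n + 1) :=
  PDLT.syz K.injective_subtype K.mkQ_surjective (LinearMap.exact_subtype_mkQ K)

/-! ### the step -/

/-- `V` is obtained from `W` by a complex of projective modules `Q₄ → Q₃ → Q₂ → Q₁ → Q₀`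
whose homology is `W` at `Q₁`, an extension `0 → W → M → V → 0` at `Q₀`, and zero elsewhere -/
structure Step (A : Type u) [Ring A] (W V : Type u) [AddCommGroup W] [Module A W]
    [AddCommGroup V] [Module A V] where
  Q : Fin 5 → Type u
  [acg : ∀ i, AddCommGroup (Q i)]
  [mod : ∀ i, Module A (Q i)]
  [proj : ∀ i, Module.Projective A (Q i)]
  d₄ : Q 4 →ₗ[A] Q 3
  d₃ : Q 3 →ₗ[A] Q 2
  d₂ : Q 2 →ₗ[A] Q 1
  d₁ : Q 1 →ₗ[A] Q 0
  inj₄ : Function.Injective d₄
  ex₃ : Function.Exact d₄ d₃
  ex₂ : Function.Exact d₃ d₂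
  zero₁ : d₁ ∘ₗ d₂ = 0
  π : LinearMap.ker d₁ →ₗ[A] W
  π_surj : Function.Surjective π
  π_ker : ∀ x : LinearMap.ker d₁, π x = 0 ↔ ∃ y, d₂ y = x.1
  ι : W →ₗ[A] (Q 0 ⧸ LinearMap.range d₁)
  ρ : (Q 0 ⧸ LinearMap.range d₁) →ₗ[A] V
  ι_inj : Function.Injective ι
  ρ_surj : Function.Surjective ρ
  ex : Function.Exact ι ρ

attribute [instance] Step.acg Step.mod Step.proj

namespace Step

variable {W V : Type u} [AddCommGroup W] [Module A W] [AddCommGroup V] [Module A V]
  (S : Step A W V)

theorem b₁ : PDLT A (LinearMap.range S.d₂) 3 := by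
  have h4 : PDLT A (LinearMap.range S.d₄) 1 :=
    (pdlt_congr (LinearEquiv.ofInjective S.d₄ S.inj₄)).1 PDLT.of_projective
  have h3 : PDLT A (LinearMap.ker S.d₃) 1 := by
    rw [LinearMap.exact_iff.1 S.ex₃]; exact h4
  have h3' : PDLT A (LinearMap.range S.d₃) 2 := (PDLT.ker_iff_range S.d₃).2 h3
  have h2 : PDLT A (LinearMap.ker S.d₂) 2 := by
    rw [LinearMap.exact_iff.1 S.ex₂]; exact h3'
  exact (PDLT.ker_iff_range S.d₂).2 h2

/-- the inclusion of the boundaries into the cycles -/
def inc : LinearMap.range S.d₂ →ₗ[A] LinearMap.ker S.d₁ :=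
  Submodule.inclusion (by
    rintro _ ⟨y, rfl⟩
    exact LinearMap.congr_fun S.zero₁ y)

theorem inc_exact : Function.Exact S.inc S.π := by
  intro x
  rw [S.π_ker]
  constructor
  · rintro ⟨y, hy⟩
    exact ⟨⟨x.1, ⟨y, hy⟩⟩, rfl⟩
  · rintro ⟨⟨z, ⟨y, hy⟩⟩, rfl⟩
    exact ⟨y, hy⟩

theorem inc_inj : Function.Injective S.inc := Submodule.inclusion_injective _

/-- the projective dimension of `M` and of the cycles -/
theorem m_iff {n : ℕ} : PDLT A (S.Q 0 ⧸ LinearMap.range S.d₁) (n + 3) ↔
    PDLT A (LinearMap.ker S.d₁) (n + 1) :=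
  (PDLT.quot_iff _).trans (PDLT.ker_iff_range S.d₁)

include S in
/-- finiteness -/
theorem upper {n : ℕ} (hn : 3 ≤ n) (h : PDLT A W n) : PDLT A V (n + 2) := by
  obtain ⟨k, rfl⟩ : ∃ k, n = k + 1 := ⟨n - 1, by omega⟩
  have hz : PDLT A (LinearMap.ker S.d₁) (k + 1) :=
    PDLT.mid S.inc_inj S.π_surj S.inc_exact (S.b₁.mono hn) h
  have hm := S.m_iff.2 hz
  exact PDLT.right (n := k + 2) S.ι_inj S.ρ_surj S.ex (h.mono (by omega)) hm

include S in
/-- lower bound -/
theorem lower {n : ℕ} (hn : 4 ≤ n) (h : PDLT A W (n + 1)) (h' : ¬ PDLT A W n) :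
    ¬ PDLT A V (n + 2) := by
  intro hV
  apply h'
  obtain ⟨k, rfl⟩ : ∃ k, n = k + 1 := ⟨n - 1, by omega⟩
  have hm : PDLT A (S.Q 0 ⧸ LinearMap.range S.d₁) (k + 3) :=
    PDLT.mid S.ι_inj S.ρ_surj S.ex (h.mono (by omega)) hV
  have hz := S.m_iff.1 hm
  exact PDLT.right S.inc_inj S.π_surj S.inc_exact (S.b₁.mono (by omega)) hz

end Step

/-- **The sequence of modules.** -/
theorem pd_seq (V : ℕ → Type u) [∀ n, AddCommGroup (V n)] [∀ n, Module A (V n)]
    (S : ∀ n, Nonempty (Step A (V n) (V (n + 1)))) (h0 : PDLT A (V 0) 5)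
    (h0' : ¬ PDLT A (V 0) 4) (n : ℕ) :
    PDLT A (V n) (2 * n + 5) ∧ ¬ PDLT A (V n) (2 * n + 4) := by
  induction n with
  | zero => exact ⟨h0, h0'⟩
  | succ n ih =>
    obtain ⟨s⟩ := S n
    have e1 : 2 * (n + 1) + 5 = 2 * n + 5 + 2 := by ring
    have e2 : 2 * (n + 1) + 4 = 2 * n + 4 + 2 := by ring
    rw [e1, e2]
    exact ⟨s.upper (by omega) ih.1, s.lower (by omega) ih.1 ih.2⟩

end P176H
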